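import Vale.Agent.P162.ThorpDefs
import Vale.Agent.P162c.Main

/-!
P162: the mixing time of the Thorp shuffle on `2^d` cards is of exact order `d`.
-/

namespace Vale.Agent.Results.P162.ThorpLinear

open Vale.Agent.P162

/-- There are absolute constants `c, C > 0` such that for every `d ≥ 1` the Thorp shuffle of
`2^d = 2 * 2^(d-1)` cards satisfies `c * d ≤ tmix ≤ C * d`, and the total variation distance to
uniform is at most `1/4` after any number `t ≥ C * d` of shuffles. -/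
theorem result : ∃ c C : ℝ, 0 < c ∧ 0 < C ∧ ∀ d : ℕ, 1 ≤ d →
    c * (d : ℝ) ≤ (tmix (2 ^ (d - 1)) : ℝ) ∧ (tmix (2 ^ (d - 1)) : ℝ) ≤ C * (d : ℝ) ∧
      ∀ t : ℕ, C * (d : ℝ) ≤ t → thorpTV (2 ^ (d - 1)) t ≤ 1 / 4 := by
  obtain ⟨c, hc, hlow⟩ := Vale.Agent.P162c.lower
  obtain ⟨C, hC⟩ := Vale.Agent.P162c.goal
  refine ⟨c, max C 1, hc, lt_of_lt_of_le one_pos (le_max_right _ _), fun d hd => ?_⟩
  have hd0 : (0 : ℝ) ≤ (d : ℝ) := Nat.cast_nonneg _
  have hle : C * (d : ℝ) ≤ max C 1 * (d : ℝ) := mul_le_mul_of_nonneg_right (le_max_left _ _) hd0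
  obtain ⟨h1, h2⟩ := hC d hd
  refine ⟨?_, h2.trans hle, fun t ht => h1 t (hle.trans ht)⟩
  have hne : {t : ℕ | thorpTV (2 ^ (d - 1)) t ≤ 1 / 4}.Nonempty := by
    obtain ⟨t, ht⟩ := exists_nat_ge (C * (d : ℝ))
    exact ⟨t, h1 t ht⟩
  exact hlow d hd (tmix (2 ^ (d - 1))) (Nat.sInf_mem hne)

end Vale.Agent.Results.P162.ThorpLinear
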