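import Vale.Agent.P162.ThorpDefs
import Vale.Agent.P162.Thorp
import Vale.Agent.P162.Butterfly
import Vale.Agent.P162.Tensor
import Vale.Agent.P162.Triangle
import Vale.Agent.P162.Table
import Vale.Agent.P162.Hyper
import Vale.Agent.P162.Soft

/-!
P162: the mixing time of the Thorp shuffle on `2^d` cards is `O(d^2)`.
-/

namespace Vale.Agent.Results.P162.ThorpLogSquared

open Vale.Agent.P162

/-- There is an absolute constant `C` such that for every `d ≥ 1` the Thorp shuffle of
`2^d = 2 * 2^(d-1)` cards has mixing time at most `C * d^2`, and the total variation distance to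
uniform is at most `1/4` after any number `t ≥ C * d^2` of shuffles. -/
theorem result : ∃ C : ℝ, ∀ d : ℕ, 1 ≤ d →
    (tmix (2 ^ (d - 1)) : ℝ) ≤ C * (d : ℝ) ^ 2 ∧
      ∀ t : ℕ, C * (d : ℝ) ^ 2 ≤ t → thorpTV (2 ^ (d - 1)) t ≤ 1 / 4 := by
  obtain ⟨C, hC⟩ := thorp (butterfly tensor triangle (table hyper soft))
  exact ⟨C, fun d hd => ⟨(hC d hd).2, (hC d hd).1⟩⟩

end Vale.Agent.Results.P162.ThorpLogSquared
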